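import Crest.Agent.H9.RI.Defs2

set_option autoImplicit false

open Crest.Agent.H2.RP MeasureTheory Set Crest.Agent.H9.RI

noncomputable section

namespace Crest.Agent.H3.RI.Apx

lemma mv_mv (θ : ℝ) (x : Cir) (a b : ℤ) : mv θ (mv θ x a) b = mv θ x (a + b) := by
  rw [mv, mv, mv, add_assoc, ← AddCircle.coe_add]
  congr 2
  push_cast; ring

lemma mv_zero (θ : ℝ) (x : Cir) : mv θ x 0 = x := by simp [mv]

lemma meas_mv (θ : ℝ) (k : ℤ) : Measurable fun x => mv θ x k := measurable_add_const _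

lemma int_mv (θ : ℝ) (k : ℤ) (g : Cir → ℝ) : ∫ x, g (mv θ x k) ∂mu = ∫ x, g x ∂mu :=
  integral_add_right_eq_self (μ := mu) g _

lemma integ_mv (θ : ℝ) (k : ℤ) {g : Cir → ℝ} (hg : Integrable g mu) :
    Integrable (fun x => g (mv θ x k)) mu := hg.comp_add_right _

lemma back {θ : ℝ} {L : ℕ} {D : Set Cir} {pos rem : Cir → ℕ} (G : Geo θ L D pos rem) (x : Cir)
    (k : ℕ) (hk : k ≤ pos x) :
    pos (mv θ x (-(k : ℤ))) + k = pos x ∧ rem (mv θ x (-(k : ℤ))) = rem x + k := by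
  induction k with
  | zero => simp [mv_zero]
  | succ k ih =>
    obtain ⟨h1, h2⟩ := ih (by omega)
    have e : mv θ (mv θ x (-((k + 1 : ℕ) : ℤ))) 1 = mv θ x (-(k : ℤ)) := by
      rw [mv_mv]; congr 1; push_cast; ring
    by_cases hD : mv θ (mv θ x (-((k + 1 : ℕ) : ℤ))) 1 ∈ D
    · have := (G.stepD _ hD).1
      rw [e] at this; omega
    · obtain ⟨a, b⟩ := G.stepN _ hD
      rw [e] at a b
      omega

end Crest.Agent.H3.RI.Apx

namespace Crest.Agent.H3.RI

open Apx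

theorem t_apx : T_apx := by
  intro θ L D pos rem ρ γ G hD mρ r01 g0 g1 g3 hI
  have L0 : (0 : ℝ) < L := by
    rcases (Nat.cast_nonneg L : (0 : ℝ) ≤ L).eq_or_lt with h | h
    · rw [← h] at g3; linarith
    · exact h
  have gL : 1 ≤ γ * L := by
    have : γ ^ 3 ≤ γ := by nlinarith [mul_pos g0 g0]
    nlinarith
  set m : ℕ := ⌈γ * L⌉₊ with hm
  have m1 : γ * L ≤ m := Nat.le_ceil _
  have m2 : (m : ℝ) ≤ 2 * (γ * L) := by
    have := Nat.ceil_lt_add_one (a := γ * L) (by positivity)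
    linarith
  have m0 : (0 : ℝ) < m := by linarith
  set Ψ : Cir → ℝ := fun x =>
    |ρ (mv θ x 1) - ρ x| * ((pos (mv θ x 1) : ℝ) * rem (mv θ x 1) / 2) with hΨ
  have Ψ0 : ∀ x, 0 ≤ Ψ x := fun x => by positivity
  have ab : ∀ x y, |ρ x - ρ y| ≤ 1 := fun x y => by
    have := r01 x; have := r01 y; rw [abs_le]; constructor <;> linarith
  have mc : Measurable fun n : ℕ => (n : ℝ) := measurable_from_top
  have iΨ : Integrable Ψ mu := by
    refine Integrable.of_bound (Measurable.aestronglyMeasurable ?_) (1 * (L * L / 2))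
      (Filter.Eventually.of_forall fun x => ?_)
    · exact ((mρ.comp (meas_mv θ 1)).sub mρ).abs.mul
        (((mc.comp (G.mpos.comp (meas_mv θ 1))).mul
          (mc.comp (G.mrem.comp (meas_mv θ 1)))).div_const 2)
    · rw [Real.norm_eq_abs, abs_of_nonneg (Ψ0 x)]
      have a : (pos (mv θ x 1) : ℝ) ≤ L := by exact_mod_cast (G.lt _).le
      have b : (rem (mv θ x 1) : ℝ) ≤ L := by exact_mod_cast G.rL _
      have c := ab (mv θ x 1) x
      show |ρ (mv θ x 1) - ρ x| * ((pos (mv θ x 1) : ℝ) * rem (mv θ x 1) / 2) ≤ _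
      gcongr
  set χ : Cir → ℝ := D.indicator fun _ => (1 : ℝ) with hχ
  have χ0 : ∀ x, 0 ≤ χ x := fun x => indicator_nonneg (fun _ _ => zero_le_one) x
  have iχ : Integrable χ mu := (integrable_const _).indicator G.mD
  have eχ : ∫ x, χ x ∂mu = mu.real D := by rw [hχ, integral_indicator G.mD]; simp
  have tele : ∀ x, m ≤ rem x → ∀ j : ℕ, j + m ≤ pos x →
      |ρ x - ρ (mv θ x (-(j : ℤ)))| ≤
        ∑ k ∈ Finset.range j, 2 / (m : ℝ) ^ 2 * Ψ (mv θ x (-((k + 1 : ℕ) : ℤ))) := by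
    intro x hr j
    induction j with
    | zero => intro _; simp [mv_zero]
    | succ j ih =>
      intro hj
      have h1 := ih (by omega)
      obtain ⟨b1, b2⟩ := back G x j (by omega)
      have e : mv θ (mv θ x (-((j + 1 : ℕ) : ℤ))) 1 = mv θ x (-(j : ℤ)) := by
        rw [mv_mv]; congr 1; push_cast; ring
      have p1 : (m : ℝ) ≤ pos (mv θ x (-(j : ℤ))) := by exact_mod_cast (by omega)
      have p2 : (m : ℝ) ≤ rem (mv θ x (-(j : ℤ))) := by exact_mod_cast (by omega)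
      have h2 : |ρ (mv θ x (-(j : ℤ))) - ρ (mv θ x (-((j + 1 : ℕ) : ℤ)))| ≤
          2 / (m : ℝ) ^ 2 * Ψ (mv θ x (-((j + 1 : ℕ) : ℤ))) := by
        simp only [hΨ, e]
        set a := |ρ (mv θ x (-(j : ℤ))) - ρ (mv θ x (-((j + 1 : ℕ) : ℤ)))|
        have a0 : 0 ≤ a := abs_nonneg _
        calc a = 2 / (m : ℝ) ^ 2 * (a * ((m : ℝ) * m / 2)) := by field_simp
          _ ≤ _ := by gcongr
      rw [Finset.sum_range_succ]
      exact (abs_sub_le _ _ _).trans (add_le_add h1 h2)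
  refine ⟨fun y => ρ (mv θ y m), mρ.comp (meas_mv θ m), fun y => r01 _, ?_⟩
  set B : Cir → ℝ := fun x =>
    ∑ k ∈ Finset.range L, 2 / (m : ℝ) ^ 2 * Ψ (mv θ x (-((k + 1 : ℕ) : ℤ))) +
      (∑ i ∈ Finset.range m, χ (mv θ x (-(i : ℤ))) + ∑ i ∈ Finset.range m, χ (mv θ x i)) with hB
  have i1 : Integrable (fun x =>
      ∑ k ∈ Finset.range L, 2 / (m : ℝ) ^ 2 * Ψ (mv θ x (-((k + 1 : ℕ) : ℤ)))) mu :=
    integrable_finset_sum _ fun k _ => (integ_mv θ _ iΨ).const_mul _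
  have i2 : Integrable (fun x => ∑ i ∈ Finset.range m, χ (mv θ x (-(i : ℤ)))) mu :=
    integrable_finset_sum _ fun k _ => integ_mv θ _ iχ
  have i3 : Integrable (fun x => ∑ i ∈ Finset.range m, χ (mv θ x i)) mu :=
    integrable_finset_sum _ fun k _ => integ_mv θ _ iχ
  have pt : ∀ x, |ρ x - ρ (mv θ (mv θ x (-(pos x : ℤ))) m)| ≤ B x := by
    intro x
    have s1 : 0 ≤ ∑ k ∈ Finset.range L, 2 / (m : ℝ) ^ 2 * Ψ (mv θ x (-((k + 1 : ℕ) : ℤ))) :=
      Finset.sum_nonneg fun k _ => mul_nonneg (by positivity) (Ψ0 _)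
    have s2 : 0 ≤ ∑ i ∈ Finset.range m, χ (mv θ x (-(i : ℤ))) := Finset.sum_nonneg fun k _ => χ0 _
    have s3 : 0 ≤ ∑ i ∈ Finset.range m, χ (mv θ x i) := Finset.sum_nonneg fun k _ => χ0 _
    have a := ab x (mv θ (mv θ x (-(pos x : ℤ))) m)
    simp only [hB]
    by_cases h1 : pos x < m
    · have := Finset.single_le_sum (f := fun i : ℕ => χ (mv θ x (-(i : ℤ)))) (fun k _ => χ0 _)
        (Finset.mem_range.2 h1)
      simp only [hχ, indicator_of_mem (G.posD x)] at this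
      simp only [hχ] at s1 s2 s3 ⊢
      linarith
    by_cases h2 : rem x < m
    · have := Finset.single_le_sum (f := fun i : ℕ => χ (mv θ x i)) (fun k _ => χ0 _)
        (Finset.mem_range.2 h2)
      simp only [hχ, indicator_of_mem (G.remD x)] at this
      simp only [hχ] at s1 s2 s3 ⊢
      linarith
    have h3 := tele x (by omega) (pos x - m) (by omega)
    have e : mv θ (mv θ x (-(pos x : ℤ))) m = mv θ x (-((pos x - m : ℕ) : ℤ)) := by
      rw [mv_mv]; congr 1; omega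
    have h4 : ∑ k ∈ Finset.range (pos x - m), 2 / (m : ℝ) ^ 2 * Ψ (mv θ x (-((k + 1 : ℕ) : ℤ))) ≤
        ∑ k ∈ Finset.range L, 2 / (m : ℝ) ^ 2 * Ψ (mv θ x (-((k + 1 : ℕ) : ℤ))) :=
      Finset.sum_le_sum_of_subset_of_nonneg
        (Finset.range_subset_range.2 (by have := G.lt x; omega))
        fun k _ _ => mul_nonneg (by positivity) (Ψ0 _)
    rw [e]
    linarith
  refine (integral_mono_of_nonneg (Filter.Eventually.of_forall fun x => abs_nonneg _)
    (i1.add (i2.add i3)) (Filter.Eventually.of_forall pt)).trans ?_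
  rw [integral_add' i1 (i2.add i3), integral_add' i2 i3,
    integral_finset_sum _ fun k _ => (integ_mv θ _ iΨ).const_mul _,
    integral_finset_sum _ fun k _ => integ_mv θ _ iχ,
    integral_finset_sum _ fun k _ => integ_mv θ _ iχ]
  simp only [integral_const_mul, int_mv θ _ Ψ, int_mv θ _ χ, eχ, Finset.sum_const,
    Finset.card_range, nsmul_eq_mul]
  have q1 : (m : ℝ) * mu.real D ≤ 16 * γ := by
    calc (m : ℝ) * mu.real D ≤ 2 * (γ * L) * (8 / L) := by gcongr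
      _ = 16 * γ := by field_simp; ring
  have q2 : (L : ℝ) * (2 / (m : ℝ) ^ 2 * ∫ x, Ψ x ∂mu) ≤ 8 * γ := by
    calc (L : ℝ) * (2 / (m : ℝ) ^ 2 * ∫ x, Ψ x ∂mu)
        ≤ L * (2 / (γ * L) ^ 2 * (4 * (γ ^ 3 * L))) := by
          have : ∫ x, Ψ x ∂mu ≤ 4 * (γ ^ 3 * L) := by linarith
          have : 0 ≤ ∫ x, Ψ x ∂mu := integral_nonneg Ψ0
          gcongr
      _ = 8 * γ := by field_simp; ring
  linarith

end Crest.Agent.H3.RI
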