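import Crest.Agent.H3.RI.Win
import Crest.Agent.H9.RI.Defs

set_option autoImplicit false

open scoped InnerProductSpace ComplexOrder
open Crest.Agent.H4.VD Crest.Agent.H4.VD.VT Crest.Agent.H2.RP MeasureTheory Set
open Crest.AnalysisR.RotationRep Crest.Agent.H9.RI

noncomputable section

namespace Crest.Agent.H3.RI

lemma BM_real {h : Cir → ℝ} {R : ℝ} (hh : RB h R) : BM fun x => (h x : ℂ) :=
  ⟨Complex.measurable_ofReal.comp hh.1, R, fun x => by simpa using hh.2 x⟩

lemma RB_exp {v : Cir → ℝ} {R : ℝ} (hv : RB v R) : RB (fun x => Real.exp (v x)) (Real.exp R) :=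
  ⟨Real.measurable_exp.comp hv.1, fun x => by
    rw [abs_of_pos (Real.exp_pos _)]; exact Real.exp_le_exp.2 (le_of_abs_le (hv.2 x))⟩

lemma RB_neg {v : Cir → ℝ} {R : ℝ} (hv : RB v R) : RB (fun x => -v x) R :=
  ⟨hv.1.neg, fun x => by simpa using hv.2 x⟩

lemma RB_ind {S : Set Cir} (hS : MeasurableSet S) : RB (S.indicator fun _ => (1 : ℝ)) 1 :=
  ⟨measurable_const.indicator hS, fun x => by by_cases h : x ∈ S <;> simp [h]⟩

theorem t_hyp : T_hyp := by
  intro θ U V T f p v R n S Z B C A β ρ₀ ρ ν₀ ν hI hv k0 k hS hZ _ hC hβ hβ1 hA _ h1 h2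
  have hUV := hI.set.hUV
  have hpi : ∀ g, BM g → pi θ g ∈ T.M := fun g hg => hI.set.sub (pi_mem hUV hg)
  have hU : U ∈ T.M := hI.set.sub fun A hA => (hA U (Or.inl (by simp))).symm
  have hf : RB f 1 := ⟨hI.mf, fun x => by rw [abs_of_nonneg (hI.f01 x).1]; exact (hI.f01 x).2⟩
  have bE := BM_real (RB_exp hv)
  have bE' := BM_real (RB_exp (RB_neg hv))
  have inv1 : pi θ (fun x => ((Real.exp (-v x) : ℝ) : ℂ)) * pr' θ (fun x => Real.exp (v x)) = 1 := by
    rw [pr', ← pi_mul bE' bE, ← pi_one (θ := θ)]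
    congr 1; funext x
    rw [← Complex.ofReal_mul, ← Real.exp_add]; simp
  have gM : pr' θ (fun x => Real.exp (v x)) ∈ T.M := hpi _ bE
  set q := pv θ v p with hq
  have qP : IsStarProjection q := rp_proj _
  have qM : q ∈ T.M := rp_mem (mul_mem gM hI.mem)
  have hpq : (1 - p) * pi θ (fun x => ((Real.exp (-v x) : ℝ) : ℂ)) * q = 0 := by
    refine mul_rp_zero ?_
    rw [mul_assoc, ← mul_assoc _ _ p, inv1, one_mul, sub_mul, one_mul,
      hI.proj.isIdempotentElem.eq, sub_self]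
  have ht : T.t p ≤ T.t q := (t_rp_mul gM hI.proj hI.mem fun u _ hu => by
    have := congrArg (fun y : Op => y u) inv1
    simp only [ContinuousLinearMap.mul_apply, hu, map_zero, ContinuousLinearMap.one_apply] at this
    exact this.symm).ge
  have cpe : ∀ x, cp θ (fun x => (f x : ℂ)) n x = (fn θ f n x : ℂ) := fun x => by
    simp [cp, fn, mv]
  have nrm : ∀ x, ‖((Real.exp R / C : ℝ) : ℂ) * (cp θ (fun x => (f x : ℂ)) n x *
      ((Real.exp (-v x) : ℝ) : ℂ))‖ = Real.exp R / C * (fn θ f n x * Real.exp (-v x)) := fun x => by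
    have : 0 ≤ fn θ f n x := Finset.prod_nonneg fun i _ => (hI.f01 _).1
    rw [cpe, ← Complex.ofReal_mul, ← Complex.ofReal_mul, Complex.norm_real, Real.norm_eq_abs,
      abs_of_nonneg (by positivity)]
  have key := win T hUV hpi hU (BM_real hf) bE' hI.proj qP hI.mem qM hI.inv hpq ht n hS hZ
    ((Real.exp R / C : ℝ) : ℂ) (d := β ^ 2) (e := β) (by positivity) hβ
    (fun x hx hs => by
      rw [nrm]
      have a := h1 x hx hs
      have b : Real.exp (-v x) ≤ Real.exp R := Real.exp_le_exp.2 (neg_le.1 (neg_le_of_abs_le (hv.2 x)))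
      calc Real.exp R / C * (fn θ f n x * Real.exp (-v x))
          ≤ Real.exp R / C * (C * Real.exp (-A) * Real.exp R) := by gcongr
        _ = Real.exp (2 * R - A) := by
          rw [show 2 * R - A = R + -A + R by ring, Real.exp_add, Real.exp_add]; field_simp
        _ ≤ _ := hA)
    (fun x hx hs => by
      rw [nrm]
      have a := h2 x hx hs
      have b : Real.exp (-R) ≤ Real.exp (-v x) :=
        Real.exp_le_exp.2 (neg_le_neg (le_of_abs_le (hv.2 x)))
      calc (1 : ℝ) = Real.exp R / C * (C * Real.exp (-R)) := by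
            rw [Real.exp_neg]; field_simp
        _ ≤ _ := by gcongr; exact hC.le.trans a)
  have eS : iS θ S = pi θ (ind S) := rfl
  have eSc : iS θ Sᶜ = 1 - pi θ (ind S) := pi_ind_compl hS
  have SM := hpi _ (BM.ind hS)
  have e1 : pr' θ (S.indicator fun _ => (1 : ℝ)) = pi θ (ind S) := by
    rw [pr']; congr 1; funext x; by_cases h : x ∈ S <;> simp [ind, h]
  have r1 : T.t (q * pi θ (ind S)) = ∫ x in S, ρ x ∂mu := by
    rw [← e1, k.diag _ _ (RB_ind hS), ← integral_indicator hS]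
    congr 1; funext x; by_cases h : x ∈ S <;> simp [h]
  have r2 : ν.real (EE θ S Sᶜ) =
      T.t (q * pi θ (ind S)) - T.t (q * pi θ (ind S) * q * pi θ (ind S)) := by
    rw [k.rect S Sᶜ hS hS.compl, eS, eSc, sub_mul, sub_mul, sub_mul, one_mul, t_sub,
      t_comm (mul_mem qM SM) qM, ← mul_assoc, qP.isIdempotentElem.eq, mul_assoc (pi θ (ind S)),
      mul_assoc (pi θ (ind S)), t_comm SM (mul_mem (mul_mem qM SM) qM)]
  have r3 : T.t (pi θ (ind Z)) = mu.real Z := by
    rw [VT.t, hI.set.tau, tau_pi (BM.ind hZ), ind, integral_indicator hZ]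
    simp
  have r4 : T.t (p * pi θ (fun t => ind S (t - ((n * θ : ℝ) : Cir)))) =
      ∫ x in S, ρ₀ (mv θ x n) ∂mu := by
    have hb : RB (fun t => S.indicator (fun _ => (1 : ℝ)) (t - ((n * θ : ℝ) : Cir))) 1 :=
      ⟨(RB_ind hS).1.comp (measurable_sub_const _), fun x => (RB_ind hS).2 _⟩
    have e2 : pi θ (fun t => ind S (t - ((n * θ : ℝ) : Cir))) =
        pr' θ (fun t => S.indicator (fun _ => (1 : ℝ)) (t - ((n * θ : ℝ) : Cir))) := by
      rw [pr']; congr 1; funext x
      generalize x - ((n * θ : ℝ) : Cir) = y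
      by_cases h : y ∈ S <;> simp [ind, h]
    rw [e2, k0.diag _ _ hb, ← integral_indicator hS,
      ← integral_add_right_eq_self (μ := mu) _ ((n * θ : ℝ) : Cir)]
    congr 1; funext x
    by_cases h : x ∈ S <;> simp [h, mv]
  have r5 : 2 * (β ^ 2) ^ 2 / β ≤ 2 * β := by
    rw [div_le_iff₀ hβ]
    have : β ^ 2 ≤ 1 := pow_le_one₀ hβ.le hβ1
    nlinarith [sq_nonneg β]
  rw [r4, r3] at key
  rw [r2, r1]
  linarith

end Crest.Agent.H3.RI
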