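import Crest.Agent.H9.RI.Defs

set_option autoImplicit false

open Crest.Agent.H2.RP MeasureTheory Set Crest.Agent.H9.RI
open scoped Classical

noncomputable section

namespace Crest.Agent.H3.RI

lemma meas_mv (θ : ℝ) : Measurable fun z : Cir × ℤ => mv θ z.1 z.2 :=
  measurable_from_prod_countable_left fun n => measurable_add_const ((n * θ : ℝ) : Cir)

lemma meas_EE (θ : ℝ) {S S' : Set Cir} (hS : MeasurableSet S) (hS' : MeasurableSet S') :
    MeasurableSet (EE θ S S') := (measurable_fst hS).inter (meas_mv θ hS')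

lemma sum_setIntegral {α : Type*} [MeasurableSpace α] (μ : Measure α) {K : ℕ} (g : α → ℝ)
    (hg : Integrable g μ) (S : Fin K → Set α) (hS : ∀ k, MeasurableSet (S k)) :
    Integrable (fun x => g x * ((Finset.univ.filter fun k => x ∈ S k).card : ℝ)) μ ∧
    ∑ k, ∫ x in S k, g x ∂μ =
      ∫ x, g x * ((Finset.univ.filter fun k => x ∈ S k).card : ℝ) ∂μ := by
  have e : (fun x => g x * ((Finset.univ.filter fun k => x ∈ S k).card : ℝ)) =
      fun x => ∑ k, (S k).indicator g x := by
    funext x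
    rw [Finset.card_filter, Nat.cast_sum, Finset.mul_sum]
    refine Finset.sum_congr rfl fun k _ => ?_
    by_cases h : x ∈ S k <;> simp [h]
  rw [e]
  refine ⟨integrable_finset_sum _ fun k _ => hg.indicator (hS k), ?_⟩
  rw [integral_finset_sum _ fun k _ => hg.indicator (hS k)]
  exact Finset.sum_congr rfl fun k _ => (integral_indicator (hS k)).symm

lemma card_le' {K : ℕ} (P : Fin K → Prop) [DecidablePred P] :
    ((Finset.univ.filter P).card : ℝ) ≤ K := by
  have := Finset.card_filter_le (Finset.univ : Finset (Fin K)) P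
  rw [Finset.card_fin] at this
  exact_mod_cast this

theorem t_H : T_H := by
  intro θ f t F V η δ A Sep v R hT hV hSep hη hη2 hδ hδ1 hv hA
  obtain ⟨K, n, S, Z, B, C, Y, hK, mS, mZ, mY, hZ, hY, hB, hC, f1, f2, f3, c1, c2, c3⟩ := hT
  haveI := F.fin v
  have hK' : (0 : ℝ) < K := Nat.cast_pos.2 hK
  have rb0 : RB (0 : Cir → ℝ) 0 := ⟨measurable_const, fun x => by simp⟩
  have int : ∀ u, Integrable (F.ρ u) mu := fun u =>
    Integrable.of_bound (F.mρ u).aestronglyMeasurable 1 (Filter.Eventually.of_forall fun x => by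
      rw [Real.norm_eq_abs, abs_of_nonneg (F.r01 u x).1]; exact (F.r01 u x).2)
  have t0 : 0 ≤ t := by
    rw [← F.mean v R hv]; exact integral_nonneg fun x => (F.r01 v x).1
  have t1 : t ≤ 1 := by
    rw [← F.mean v R hv]
    have := integral_mono (int v) (integrable_const (1 : ℝ)) fun x => (F.r01 v x).2
    simpa using this
  have iY : Integrable (Y.indicator fun _ => (K : ℝ)) mu := (integrable_const _).indicator mY
  have eY : ∫ x, Y.indicator (fun _ => (K : ℝ)) x ∂mu = mu.real Y * K := by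
    rw [integral_indicator mY]; simp
  -- (a)
  have A1 : η / 10 * K * (F.ν v).real Sep ≤ ∑ k, (F.ν v).real (EE θ (S k) (S k)ᶜ) := by
    obtain ⟨i1, e1⟩ := sum_setIntegral (F.ν v) (fun _ => (1 : ℝ)) (integrable_const _)
      (fun k => EE θ (S k) (S k)ᶜ) fun k => meas_EE θ (mS k) (mS k).compl
    have e2 : ∑ k, (F.ν v).real (EE θ (S k) (S k)ᶜ) =
        ∑ k, ∫ _ in EE θ (S k) (S k)ᶜ, (1 : ℝ) ∂(F.ν v) := by simp
    have e3 : η / 10 * K * (F.ν v).real Sep =
        ∫ z, Sep.indicator (fun _ => η / 10 * K) z ∂(F.ν v) := by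
      rw [integral_indicator hSep]; simp [mul_comm]
    rw [e2, e1, e3]
    refine integral_mono ((integrable_const _).indicator hSep) i1 fun z => ?_
    by_cases hz : z ∈ Sep
    · have := c3 z hz
      simp only [indicator_of_mem hz, one_mul]
      refine this.trans (le_of_eq ?_)
      congr 2
      ext k
      simp [EE]
    · simp only [indicator_of_notMem hz]; positivity
  -- (b)
  have A2 : ∑ k, ∫ x in S k, F.ρ v x ∂mu ≤ (η + δ) * K * t + δ * K := by
    obtain ⟨i1, e1⟩ := sum_setIntegral mu (F.ρ v) (int v) S mS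
    rw [e1]
    have i2 : Integrable (fun x => (η + δ) * K * F.ρ v x) mu := (int v).const_mul _
    refine (integral_mono i1 (i2.add iY) fun x => ?_).trans ?_
    · have r := F.r01 v x
      by_cases hx : x ∈ Y
      · have := card_le' fun k => x ∈ S k
        have h0 : (0 : ℝ) ≤ (Finset.univ.filter fun k => x ∈ S k).card := Nat.cast_nonneg _
        have h1 : 0 ≤ (η + δ) * K * F.ρ v x := by have := r.1; positivity
        simp only [Pi.add_apply, indicator_of_mem hx]
        nlinarith
      · have := c1 x hx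
        simp only [Pi.add_apply, indicator_of_notMem hx]
        nlinarith
    · rw [integral_add' i2 iY, integral_const_mul, F.mean v R hv, eY]
      nlinarith
  -- (c)
  have A3 : (1 - 2 * η) * K * ∫ x in V, F.ρ 0 x ∂mu - δ * K ≤
      ∑ k, ∫ x in S k, F.ρ 0 (mv θ x (n k)) ∂mu := by
    have mS' : ∀ k, MeasurableSet {x | mv θ x (-(n k : ℤ)) ∈ S k} := fun k =>
      measurable_add_const _ (mS k)
    have e0 : ∀ k, ∫ x in S k, F.ρ 0 (mv θ x (n k)) ∂mu =
        ∫ x in {x | mv θ x (-(n k : ℤ)) ∈ S k}, F.ρ 0 x ∂mu := fun k => by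
      rw [← integral_indicator (mS k), ← integral_indicator (mS' k),
        ← integral_add_right_eq_self (μ := mu)
          ({x | mv θ x (-(n k : ℤ)) ∈ S k}.indicator (F.ρ 0)) ((((n k : ℤ) : ℝ) * θ : ℝ) : Cir)]
      congr 1; funext x
      have : mv θ (x + ((((n k : ℤ) : ℝ) * θ : ℝ) : Cir)) (-(n k : ℤ)) = x := by
        rw [mv, add_assoc, ← AddCircle.coe_add]; simp
      by_cases h : x ∈ S k
      · rw [indicator_of_mem h, indicator_of_mem (by simpa only [mem_setOf_eq, this] using h)]; rfl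
      · rw [indicator_of_notMem h,
          indicator_of_notMem (by simpa only [mem_setOf_eq, this] using h)]
    obtain ⟨i1, e1⟩ := sum_setIntegral mu (F.ρ 0) (int 0) _ mS'
    rw [Finset.sum_congr rfl fun k _ => e0 k, e1]
    have i2 : Integrable (fun x => (1 - 2 * η) * K * V.indicator (F.ρ 0) x) mu :=
      ((int 0).indicator hV).const_mul _
    refine le_trans ?_ (integral_mono (i2.sub iY) i1 fun x => ?_)
    · rw [integral_sub' i2 iY, integral_const_mul, integral_indicator hV, eY]
      nlinarith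
    · have r := F.r01 0 x
      have h0 : (0 : ℝ) ≤ (Finset.univ.filter fun k => x ∈ {x | mv θ x (-(n k : ℤ)) ∈ S k}).card :=
        Nat.cast_nonneg _
      have h1 := mul_nonneg r.1 h0
      have h2 : 0 ≤ (1 - 2 * η) * K := by nlinarith
      have h3 : (1 - 2 * η) * K ≤ K := by nlinarith
      by_cases hx : x ∈ Y <;> by_cases hxV : x ∈ V
      · simp only [Pi.sub_apply, indicator_of_mem hx, indicator_of_mem hxV]
        nlinarith
      · simp only [Pi.sub_apply, indicator_of_mem hx, indicator_of_notMem hxV]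
        nlinarith
      · have := c2 x hx hxV
        simp only [Pi.sub_apply, indicator_of_notMem hx, indicator_of_mem hxV, mem_setOf_eq]
        nlinarith
      · simp only [Pi.sub_apply, indicator_of_notMem hx, indicator_of_notMem hxV]
        nlinarith
  -- (d)
  have A4 : ∑ k, (F.ν v).real (EE θ (S k) (S k)ᶜ) ≤ ∑ k, ∫ x in S k, F.ρ v x ∂mu -
      ∑ k, ∫ x in S k, F.ρ 0 (mv θ x (n k)) ∂mu + 6 * δ * K := by
    have : (6 * δ * K : ℝ) = ∑ _k : Fin K, 6 * δ := by simp [mul_comm]
    rw [this, ← Finset.sum_sub_distrib, ← Finset.sum_add_distrib]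
    refine Finset.sum_le_sum fun k _ => ?_
    have := F.hyp v R (n k) (S k) (Z k) (B k) (C k) A δ hv (mS k) (mZ k) (hB k) (hC k) hδ hδ1 hA
      (f1 k) (f2 k) (f3 k)
    have := hZ k
    linarith
  have e5 : ∫ x, F.ρ 0 x * zt V η x ∂mu = ∫ x in V, F.ρ 0 x ∂mu - η * t := by
    have hm := F.mean 0 0 rb0
    have : η * t = ∫ x, η * F.ρ 0 x ∂mu := by rw [integral_const_mul, hm]
    rw [this, ← integral_indicator hV, ← integral_sub ((int 0).indicator hV) ((int 0).const_mul _)]
    congr 1; funext x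
    by_cases h : x ∈ V <;> simp [zt, h] <;> ring
  set b := |∫ x, F.ρ 0 x * zt V η x ∂mu| with hb
  have b0 : 0 ≤ b := abs_nonneg _
  have b1 : η * t - b ≤ ∫ x in V, F.ρ 0 x ∂mu := by
    have := neg_abs_le (∫ x, F.ρ 0 x * zt V η x ∂mu)
    linarith
  set I := ∫ x in V, F.ρ 0 x ∂mu
  have b2 : (1 - 2 * η) * (η * t - b) ≤ (1 - 2 * η) * I :=
    mul_le_mul_of_nonneg_left b1 (by linarith)
  have b3 : η / 10 * (F.ν v).real Sep ≤ 2 * η ^ 2 + b + 10 * δ := by
    refine le_of_mul_le_mul_right ?_ hK'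
    have : (η + δ) * t - (1 - 2 * η) * I + 8 * δ ≤ 2 * η ^ 2 + b + 10 * δ := by
      nlinarith [mul_nonneg hη.le b0, mul_nonneg (sq_nonneg η) (sub_nonneg.2 t1),
        mul_nonneg hδ.le (sub_nonneg.2 t1)]
    have := mul_le_mul_of_nonneg_right this hK'.le
    nlinarith
  rw [div_mul_eq_mul_div, le_div_iff₀ hη]
  linarith

end Crest.Agent.H3.RI
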