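import Crest.Agent.H4.VD.Dim

/-! Threshold inequality for two projections related by an operator that damps `S`. -/

set_option autoImplicit false

open scoped InnerProductSpace ComplexOrder
open Crest.Agent.H4.VD Crest.Agent.H4.VD.VT

noncomputable section

namespace Crest.Agent.H3.RI

variable {H : Type*} [NormedAddCommGroup H] [InnerProductSpace ℂ H] [CompleteSpace H]

lemma re_inner_proj {S : H →L[ℂ] H} (hS : IsStarProjection S) (w : H) :
    (⟪S w, w⟫_ℂ).re = ‖S w‖ ^ 2 := by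
  have : ⟪S w, w⟫_ℂ = ⟪S w, S w⟫_ℂ := by
    conv_lhs => rw [← proj_apply hS w, ← hS.isSelfAdjoint.star_eq, inner_star,
      hS.isSelfAdjoint.star_eq]
  rw [this, inner_self_eq_norm_sq_to_K]
  simp [← Complex.ofReal_pow]

lemma norm_sq_split {S : H →L[ℂ] H} (hS : IsStarProjection S) (w : H) :
    ‖S w‖ ^ 2 + ‖(1 - S) w‖ ^ 2 = ‖w‖ ^ 2 := by
  rw [← re_inner_proj hS, ← re_inner_proj hS.one_sub, ← Complex.add_re, ← inner_add_left]
  have : S w + (1 - S) w = w := by simp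
  rw [this, inner_self_eq_norm_sq_to_K]
  simp [← Complex.ofReal_pow]

lemma t_split {T : VT H} {a s : H →L[ℂ] H} (ha : a ∈ T.M) (hs : IsStarProjection s)
    (hsM : s ∈ T.M) : T.t a = T.t (s * a * s) + T.t ((1 - s) * a * (1 - s)) := by
  have hq := sub_mem one_mem hsM
  rw [mul_assoc, t_comm hsM (mul_mem ha hsM), mul_assoc, hs.isIdempotentElem.eq, mul_assoc,
    t_comm hq (mul_mem ha hq), mul_assoc, hs.one_sub.isIdempotentElem.eq, ← t_add, ← mul_add]
  simp

/-- TOOL A. -/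
theorem toolA (T : VT H) {p₁ p₂ S z x : H →L[ℂ] H}
    (hp₁ : IsStarProjection p₁) (hp₂ : IsStarProjection p₂) (hS : IsStarProjection S)
    (hz : IsStarProjection z) (p₁M : p₁ ∈ T.M) (p₂M : p₂ ∈ T.M) (SM : S ∈ T.M) (zM : z ∈ T.M)
    (xM : x ∈ T.M) (hinv : (1 - p₁) * x * p₂ = 0) (ht : T.t p₁ ≤ T.t p₂) {d e : ℝ} (he : 0 < e)
    (h1 : ∀ v, z v = 0 → ‖S (x v)‖ ≤ d * ‖S v‖)
    (h2 : ∀ v, z v = 0 → ‖(1 - S) v‖ ≤ ‖(1 - S) (x v)‖) :
    T.t (p₁ * S) ≤ T.t (p₂ * S * p₂ * S) + T.t z + e + 2 * d ^ 2 / e := by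
  have i1 := hp₁.isIdempotentElem.eq
  have i2 := hp₂.isIdempotentElem.eq
  have s1 := hp₁.isSelfAdjoint.star_eq
  have s2 := hp₂.isSelfAdjoint.star_eq
  have sS := hS.isSelfAdjoint.star_eq
  set ν : H →L[ℂ] H := p₁ * S * p₁ with hν
  have νM : ν ∈ T.M := mul_mem (mul_mem p₁M SM) p₁M
  have νsa : IsSelfAdjoint ν := by
    show star _ = _
    rw [hν, star_mul, star_mul, s1, sS, mul_assoc]
  set s := sp ν e with hs
  have hsP : IsStarProjection s := sp_proj _ _
  have sM : s ∈ T.M := sp_mem νsa νM e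
  have ss := hsP.isSelfAdjoint.star_eq
  have hc : p₁ * s = s * p₁ := comm_sp νsa e (by
    rw [hν, ← mul_assoc, ← mul_assoc, i1, mul_assoc (p₁ * S), i1])
  have hx : p₁ * x * p₂ = x * p₂ := by
    rw [sub_mul, sub_mul, one_mul, sub_eq_zero] at hinv; exact hinv.symm
  -- trace of `p₁ S`
  have A1 : T.t (p₁ * S) ≤ T.t (p₁ * s) + e := by
    have e0 : T.t (p₁ * S) = T.t ν := by
      rw [hν, t_comm (mul_mem p₁M SM) p₁M, ← mul_assoc, i1]
    rw [e0, t_split νM hsP sM]
    have a1 : T.t (s * ν * s) ≤ T.t (p₁ * s) := by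
      have b : 0 ≤ T.t (star ((1 - S) * p₁ * s) * ((1 - S) * p₁ * s)) := t_star_mul_nonneg _
      have b2 : star ((1 - S) * p₁ * s) * ((1 - S) * p₁ * s) = s * p₁ * s - s * ν * s := by
        rw [star_mul, star_mul, s1, ss, hS.one_sub.isSelfAdjoint.star_eq]
        calc s * (p₁ * (1 - S)) * ((1 - S) * p₁ * s)
            = s * p₁ * ((1 - S) * (1 - S)) * p₁ * s := by noncomm_ring
          _ = s * (p₁ * p₁) * s - s * (p₁ * S * p₁) * s := by
            rw [hS.one_sub.isIdempotentElem.eq]; noncomm_ring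
          _ = _ := by rw [i1]
      have b3 : T.t (s * p₁ * s) = T.t (p₁ * s) := by
        rw [← hc, mul_assoc, hsP.isIdempotentElem.eq]
      rw [b2, t_sub, b3] at b
      linarith
    have a2 := t_conj_le (T := T) (a := -ν) hsP.one_sub (c := -e) νsa.neg (fun v hv => by
      have hv0 : s v = 0 := by
        have : v - s v = v := hv
        simpa using this
      have := sp_le νsa e hv0
      simp only [ContinuousLinearMap.neg_apply, inner_neg_left, Complex.neg_re]
      linarith)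
    have a3 : T.t ((1 - s) * -ν * (1 - s)) = - T.t ((1 - s) * ν * (1 - s)) := by
      have : (1 - s) * -ν * (1 - s) = 0 - (1 - s) * ν * (1 - s) := by noncomm_ring
      rw [this, t_sub, t_zero, zero_sub]
    have a4 := t_proj_le_one (T := T) hsP.one_sub
    nlinarith
  -- the good subspace
  have yM : (1 - s) * x ∈ T.M := mul_mem (sub_mem one_mem sM) xM
  set K₁ := pinf p₂ (kp ((1 - s) * x)) with hK₁
  have K₁M : K₁ ∈ T.M := pinf_mem p₂M (kp_mem yM)
  have A2 : T.t (p₁ * s) ≤ T.t K₁ := by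
    have b1 := t_pinf_kp yM hp₂ p₂M
    have hq : IsStarProjection (p₁ * (1 - s)) := by
      refine hp₁.mul hsP.one_sub ?_
      show p₁ * (1 - s) = (1 - s) * p₁
      rw [mul_sub, sub_mul, hc, mul_one, one_mul]
    have b2 : T.t (rp ((1 - s) * x * p₂)) ≤ T.t (p₁ * (1 - s)) := by
      refine t_proj_mono (rp_proj _) hq (mul_rp ?_)
      have c : p₁ * (1 - s) = (1 - s) * p₁ := by rw [mul_sub, sub_mul, hc, mul_one, one_mul]
      calc p₁ * (1 - s) * ((1 - s) * x * p₂) = p₁ * ((1 - s) * (1 - s)) * (x * p₂) := by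
            noncomm_ring
        _ = (1 - s) * (p₁ * x * p₂) := by
            rw [hsP.one_sub.isIdempotentElem.eq, c]; noncomm_ring
        _ = _ := by rw [hx, mul_assoc]
    rw [mul_sub, mul_one, t_sub] at b2
    linarith
  set K := pinf K₁ (1 - z) with hK
  have KP : IsStarProjection K := pinf_proj _ _
  have KM : K ∈ T.M := pinf_mem K₁M (sub_mem one_mem zM)
  have A3 : T.t K₁ - T.t z ≤ T.t K := by
    have := t_pinf_ge (T := T) (pinf_proj p₂ (kp ((1 - s) * x))) hz.one_sub K₁M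
      (sub_mem one_mem zM)
    rw [t_sub, t_one] at this
    linarith
  have hKv : ∀ v, K v = v → p₂ v = v ∧ (1 - d ^ 2 / e) * ‖v‖ ^ 2 ≤ (⟪S v, v⟫_ℂ).re := by
    intro v hv
    obtain ⟨c1, c2⟩ := (pinf_apply_eq_self (pinf_proj _ _) hz.one_sub).1 hv
    obtain ⟨c3, c4⟩ := (pinf_apply_eq_self hp₂ (kp_proj _)).1 c1
    have zv : z v = 0 := by
      have : v - z v = v := c2
      simpa using this
    have c5 : s (x v) = x v := by
      have : x v - s (x v) = 0 := kp_apply_eq_self.1 c4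
      exact (sub_eq_zero.1 this).symm
    have c6 : p₁ (x v) = x v := by
      have := congrArg (fun y : H →L[ℂ] H => y v) hx
      simpa [c3] using this
    have c7 := sp_ge νsa e c5
    have c8 : (⟪ν (x v), x v⟫_ℂ).re = ‖S (x v)‖ ^ 2 := by
      have : ν (x v) = star p₁ (S (x v)) := by rw [s1, hν]; simp [c6]
      rw [this, inner_star, c6, re_inner_proj hS]
    refine ⟨c3, ?_⟩
    rw [re_inner_proj hS]
    have n1 := norm_sq_split hS v
    have n2 := norm_sq_split hS (x v)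
    have n3 : ‖S (x v)‖ ^ 2 ≤ d ^ 2 * ‖S v‖ ^ 2 := by
      rw [← mul_pow]; exact pow_le_pow_left₀ (norm_nonneg _) (h1 v zv) 2
    have n4 : ‖(1 - S) v‖ ^ 2 ≤ ‖(1 - S) (x v)‖ ^ 2 :=
      pow_le_pow_left₀ (norm_nonneg _) (h2 v zv) 2
    have n5 : e * ‖(1 - S) v‖ ^ 2 ≤ d ^ 2 * ‖v‖ ^ 2 := by
      have := sq_nonneg ‖S (x v)‖
      have := sq_nonneg ‖(1 - S) v‖
      have := sq_nonneg d
      nlinarith
    have n6 : ‖(1 - S) v‖ ^ 2 ≤ d ^ 2 / e * ‖v‖ ^ 2 := by
      rw [div_mul_eq_mul_div, le_div_iff₀ he]; linarith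
    linarith
  have A4 := t_conj_le (T := T) KP hS.isSelfAdjoint fun v hv => (hKv v hv).2
  have hpK : p₂ * K = K := by
    ext v; exact (hKv _ (proj_apply KP v)).1
  have hKp : K * p₂ = K := by
    have := congrArg star hpK
    rwa [star_mul, s2, KP.isSelfAdjoint.star_eq] at this
  set μ : H →L[ℂ] H := p₂ * S * p₂ with hμ
  have μM : μ ∈ T.M := mul_mem (mul_mem p₂M SM) p₂M
  have μsa : star μ = μ := by rw [hμ, star_mul, star_mul, s2, sS, mul_assoc]
  have B1 : T.t (K * (μ * μ) * K) ≤ T.t (μ * μ) := by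
    refine t_conj_proj_le ?_ (mul_mem μM μM) KP KM
    have := star_mul_self_nonneg μ
    rwa [μsa] at this
  have B2 : T.t (μ * μ) = T.t (p₂ * S * p₂ * S) := by
    have : μ * μ = p₂ * S * p₂ * S * p₂ := by
      calc μ * μ = p₂ * S * (p₂ * p₂) * S * p₂ := by rw [hμ]; noncomm_ring
        _ = _ := by rw [i2]
    rw [this, t_comm (mul_mem (mul_mem (mul_mem p₂M SM) p₂M) SM) p₂M]
    simp only [← mul_assoc, i2]
  have B3 : 2 * T.t (K * S * K) - T.t K ≤ T.t (K * (μ * μ) * K) := by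
    have b : 0 ≤ T.t (star ((μ - 1) * K) * ((μ - 1) * K)) := t_star_mul_nonneg _
    have b1 : K * μ * K = K * S * K := by
      calc K * μ * K = (K * p₂) * S * (p₂ * K) := by rw [hμ]; noncomm_ring
        _ = _ := by rw [hKp, hpK]
    have b2 : star ((μ - 1) * K) * ((μ - 1) * K)
        = K * (μ * μ) * K - K * μ * K - K * μ * K + K * K := by
      rw [star_mul, star_sub, μsa, star_one, KP.isSelfAdjoint.star_eq]; noncomm_ring
    rw [b2, b1, KP.isIdempotentElem.eq, t_add, t_sub, t_sub] at b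
    linarith
  have B4 := t_proj_le_one (T := T) KP
  have B5 : 0 ≤ d ^ 2 / e := by positivity
  have B6 : 2 * d ^ 2 / e = 2 * (d ^ 2 / e) := by ring
  nlinarith

end Crest.Agent.H3.RI
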