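import Crest.Agent.H3.RI.ToolA
import Crest.Agent.H2.RP.Ker

/-! The window test in the rotation algebra. -/

set_option autoImplicit false

open scoped InnerProductSpace ComplexOrder
open Crest.Agent.H4.VD Crest.Agent.H4.VD.VT Crest.Agent.H2.RP MeasureTheory
open Crest.AnalysisR.RotationRep

noncomputable section

namespace Crest.Agent.H3.RI

variable {θ : ℝ} {U V : HH →L[ℂ] HH}

lemma norm_pi_mono {g h : Cir → ℂ} (hg : BM g) (hh : BM h) {Z : Set Cir} (hZ : MeasurableSet Z)
    (hle : ∀ t, t ∉ Z → ‖g t‖ ≤ ‖h t‖) {v : HH} (hv : pi θ (ind Z) v = 0) :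
    ‖pi θ g v‖ ≤ ‖pi θ h v‖ := by
  set k : Cir → ℂ := fun t => ind Zᶜ t * (g t / h t) with hk
  have kb : ∀ t, ‖k t‖ ≤ 1 := fun t => by
    by_cases ht : t ∈ Z
    · simp [hk, ind, ht]
    · have := hle t ht
      simp only [hk, ind, Set.indicator_of_mem (Set.mem_compl ht), one_mul, norm_div]
      exact div_le_one_of_le₀ this (norm_nonneg _)
  have kB : BM k := ⟨(BM.ind hZ.compl).1.mul (hg.1.div hh.1), 1, kb⟩
  have e : (fun t => g t * ind Zᶜ t) = fun t => k t * h t := by
    funext t
    by_cases ht : t ∈ Z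
    · simp [hk, ind, ht]
    · have := hle t ht
      simp only [hk, ind, Set.indicator_of_mem (Set.mem_compl ht), one_mul, mul_one]
      by_cases h0 : h t = 0
      · rw [h0, norm_zero, norm_le_zero_iff] at this
        rw [this, h0, mul_zero]
      · field_simp
  have e1 : pi θ g v = pi θ k (pi θ h v) := by
    have a : pi θ (ind Zᶜ) v = v := by rw [pi_ind_compl hZ]; simp [hv]
    have b := congrArg (fun y : HH →L[ℂ] HH => y v)
      ((pi_mul (θ := θ) hg (BM.ind hZ.compl)).symm.trans (e ▸ pi_mul (θ := θ) kB hh))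
    simpa [a] using b
  rw [e1]
  refine ((pi θ k).le_opNorm _).trans ?_
  exact mul_le_of_le_one_left (norm_nonneg _)
    (norm_pi_le kB zero_le_one (Filter.Eventually.of_forall kb))

/-- cocycle product -/
def cp (θ : ℝ) (F : Cir → ℂ) (n : ℕ) (t : Cir) : ℂ :=
  ∏ i ∈ Finset.range n, F (t + ((i * θ : ℝ) : Cir))

lemma cp_succ (F : Cir → ℂ) (n : ℕ) (t : Cir) :
    cp θ F (n + 1) t = cp θ F n (t + (θ : Cir)) * F t := by
  rw [cp, Finset.prod_range_succ', cp]
  congr 1
  · refine Finset.prod_congr rfl fun i _ => ?_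
    congr 1
    rw [add_assoc, ← AddCircle.coe_add]
    congr 2
    push_cast; ring
  · simp

lemma cp_BM {F : Cir → ℂ} (hF : BM F) (n : ℕ) : BM (cp θ F n) := by
  induction n with
  | zero => exact BM.const 1
  | succ n ih =>
    have : cp θ F (n + 1) = fun t => cp θ F n (t + (θ : Cir)) * F t := funext (cp_succ F n)
    rw [this]; exact (ih.shift _).mul hF

lemma pow_eq (hUV : IsRotationPair θ U V) {F : Cir → ℂ} (hF : BM F) (n : ℕ) :
    (U * pi θ F) ^ n = U ^ n * pi θ (cp θ F n) := by
  induction n with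
  | zero =>
    have : cp θ F 0 = fun _ => 1 := rfl
    rw [this, pi_one]; simp
  | succ n ih =>
    have : cp θ F (n + 1) = fun t => cp θ F n (t + (θ : Cir)) * F t := funext (cp_succ F n)
    rw [pow_succ, ih, this, pi_mul ((cp_BM hF n).shift _) hF, pow_succ, mul_assoc, ← mul_assoc _ U,
      pi_mul_U hUV (cp_BM hF n)]
    simp only [mul_assoc]

lemma inv_mul {p q r x y : HH →L[ℂ] HH} (h1 : (1 - p) * x * q = 0) (h2 : (1 - q) * y * r = 0) :
    (1 - p) * (x * y) * r = 0 := by
  have : y * r = q * y * r := by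
    rw [sub_mul, sub_mul, one_mul, sub_eq_zero] at h2; exact h2
  calc (1 - p) * (x * y) * r = (1 - p) * x * (y * r) := by noncomm_ring
    _ = (1 - p) * x * q * y * r := by rw [this]; noncomm_ring
    _ = 0 := by rw [h1]; simp

lemma inv_pow {p x : HH →L[ℂ] HH} (hp : IsStarProjection p) (h : (1 - p) * x * p = 0) (n : ℕ) :
    (1 - p) * x ^ n * p = 0 := by
  induction n with
  | zero => rw [pow_zero, mul_one, sub_mul, one_mul, hp.isIdempotentElem.eq, sub_self]
  | succ n ih => rw [pow_succ]; exact inv_mul ih h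

lemma pow_pi_star (hUV : IsRotationPair θ U V) {g : Cir → ℂ} (hg : BM g) (n : ℕ) :
    U ^ n * pi θ g * star (U ^ n) = pi θ (fun t => g (t - ((n * θ : ℝ) : Cir))) := by
  induction n with
  | zero => simp
  | succ n ih =>
    have hg' : BM fun t => g (t - ((n * θ : ℝ) : Cir)) := by
      simpa [sub_eq_add_neg] using hg.shift (-((n * θ : ℝ) : Cir))
    rw [pow_succ', star_mul]
    calc U * U ^ n * pi θ g * (star (U ^ n) * star U)
        = U * (U ^ n * pi θ g * star (U ^ n)) * star U := by noncomm_ring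
      _ = _ := by
        rw [ih, U_pi_star_U hUV hg']
        congr 1; funext t; congr 1
        rw [sub_sub, ← AddCircle.coe_add]
        congr 2
        push_cast; ring

lemma star_pow_mul (hUV : IsRotationPair θ U V) (n : ℕ) : star (U ^ n) * U ^ n = 1 :=
  (pow_mem (U_unitary hUV) n).1

lemma pow_mul_star (hUV : IsRotationPair θ U V) (n : ℕ) : U ^ n * star (U ^ n) = 1 :=
  (pow_mem (U_unitary hUV) n).2

/-- The window test. `w` is the inverse tilt (e.g. `exp (-v)`), `q` the tilted projection. -/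
theorem win (T : VT HH) (hUV : IsRotationPair θ U V) (hpi : ∀ g, BM g → pi θ g ∈ T.M)
    (hU : U ∈ T.M) {F w : Cir → ℂ} (hF : BM F) (hw : BM w) {p q : HH →L[ℂ] HH}
    (hp : IsStarProjection p) (hq : IsStarProjection q) (pM : p ∈ T.M) (qM : q ∈ T.M)
    (hinv : (1 - p) * (U * pi θ F) * p = 0) (hpq : (1 - p) * pi θ w * q = 0)
    (ht : T.t p ≤ T.t q) (n : ℕ) {S Z : Set Cir} (hS : MeasurableSet S) (hZ : MeasurableSet Z)
    (c : ℂ) {d e : ℝ} (hd : 0 ≤ d) (he : 0 < e)
    (h1 : ∀ t, t ∉ Z → t ∈ S → ‖c * (cp θ F n t * w t)‖ ≤ d)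
    (h2 : ∀ t, t ∉ Z → t ∉ S → 1 ≤ ‖c * (cp θ F n t * w t)‖) :
    T.t (p * pi θ (fun t => ind S (t - ((n * θ : ℝ) : Cir)))) ≤
      T.t (q * pi θ (ind S) * q * pi θ (ind S)) + T.t (pi θ (ind Z)) + e + 2 * d ^ 2 / e := by
  have a1 := star_pow_mul hUV n
  have a2 := pow_mul_star hUV n
  have UM : U ^ n ∈ T.M := VT.pow_mem hU n
  have UM' : star (U ^ n) ∈ T.M := star_mem' UM
  set W := U ^ n with hW
  have xB : BM fun t => c * (cp θ F n t * w t) := (BM.const c).mul ((cp_BM hF n).mul hw)
  have hp₁ : IsStarProjection (star W * p * W) := by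
    refine ⟨?_, ?_⟩
    · show star W * p * W * (star W * p * W) = _
      calc star W * p * W * (star W * p * W) = star W * p * (W * star W) * p * W := by
            noncomm_ring
        _ = star W * (p * p) * W := by rw [a2]; noncomm_ring
        _ = _ := by rw [hp.isIdempotentElem.eq]
    · show star _ = _
      rw [star_mul, star_mul, star_star, hp.isSelfAdjoint.star_eq, mul_assoc]
  have p₁M : star W * p * W ∈ T.M := mul_mem (mul_mem UM' pM) UM
  have t1 : T.t (star W * p * W) = T.t p := by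
    rw [t_comm (mul_mem UM' pM) UM, ← mul_assoc, a2, one_mul]
  have hx : (1 - star W * p * W) * pi θ (fun t => c * (cp θ F n t * w t)) * q = 0 := by
    have b := inv_mul (inv_pow hp hinv n) hpq
    rw [pow_eq hUV hF, ← hW] at b
    rw [pi_smul c ((cp_BM hF n).mul hw), pi_mul (cp_BM hF n) hw]
    have : 1 - star W * p * W = star W * (1 - p) * W := by
      rw [mul_sub, sub_mul, mul_one, a1]
    rw [this, mul_smul_comm, smul_mul_assoc]
    have : star W * (1 - p) * W * (pi θ (cp θ F n) * pi θ w) * q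
        = star W * ((1 - p) * (W * pi θ (cp θ F n) * pi θ w) * q) := by noncomm_ring
    rw [this, b, mul_zero, smul_zero]
  have key := toolA T hp₁ hq (pi_ind_proj (θ := θ) hS) (pi_ind_proj (θ := θ) hZ) p₁M qM
    (hpi _ (BM.ind hS)) (hpi _ (BM.ind hZ)) (hpi _ xB) hx (t1 ▸ ht) (d := d) he
    (fun v hv => by
      have b1 := congrArg (fun y : HH →L[ℂ] HH => y v) (pi_mul (θ := θ) (BM.ind hS) xB)
      have b2 := congrArg (fun y : HH →L[ℂ] HH => y v) (pi_smul (θ := θ) (d : ℂ) (BM.ind hS))
      simp only [ContinuousLinearMap.mul_apply, ContinuousLinearMap.smul_apply] at b1 b2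
      have b3 := norm_pi_mono (θ := θ) ((BM.ind hS).mul xB) ((BM.const (d : ℂ)).mul (BM.ind hS)) hZ
        (fun t ht => by
          by_cases hs : t ∈ S
          · have := h1 t ht hs
            simpa [ind, hs, abs_of_nonneg hd] using this
          · simp [ind, hs]) hv
      rw [b1, b2, norm_smul, Complex.norm_real, Real.norm_eq_abs, abs_of_nonneg hd] at b3
      exact b3)
    (fun v hv => by
      rw [← pi_ind_compl hS]
      have b1 := congrArg (fun y : HH →L[ℂ] HH => y v) (pi_mul (θ := θ) (BM.ind hS.compl) xB)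
      simp only [ContinuousLinearMap.mul_apply] at b1
      have b3 := norm_pi_mono (θ := θ) (BM.ind hS.compl) ((BM.ind hS.compl).mul xB) hZ
        (fun t ht => by
          by_cases hs : t ∈ S
          · simp [ind, hs]
          · have := h2 t ht hs
            simpa [ind, hs] using this) hv
      rw [b1] at b3
      exact b3)
  have t2 : T.t (star W * p * W * pi θ (ind S)) =
      T.t (p * pi θ (fun t => ind S (t - ((n * θ : ℝ) : Cir)))) := by
    rw [← pow_pi_star hUV (BM.ind hS) n, ← hW, mul_assoc, mul_assoc,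
      t_comm UM' (mul_mem pM (mul_mem UM (hpi _ (BM.ind hS))))]
    simp only [mul_assoc]
  rwa [t2] at key

end Crest.Agent.H3.RI
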